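import Vale.Agent.P358.Final

/-!
# P358: the classical capacity of the generalized amplitude-damping channel

Full positive answer to Q1: for every `(γ, ν) ∈ [0,1]²` and every `n ≥ 1`,
`χ(A_{γ,ν}^{⊗n}) = n χ(A_{γ,ν})`, hence `C(A_{γ,ν}) = χ(A_{γ,ν})`, and this number is the maximum
over `q ∈ [0,1]` of `h₂(t) - h₂((1+√(1-4D))/2)`, `t = (1-γ)q + γν`, `D = t(1-t) - (1-γ)q(1-q)`.
-/

namespace Vale.Agent.Results.P358.Additivity

open Vale.Agent.P358

/-- For all `γ, ν ∈ [0,1]`: the sets of Holevo quantities of `A = A_{γ,ν}` and of all its tensor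
powers are nonempty and bounded above (so the suprema are genuine), `χ(A^{⊗n}) = n χ(A)` for all
`n ≥ 1`, `C(A) = χ(A)`, and `C(A)` is the maximum of `rate γ ν` over `[0,1]`. -/
theorem result (γ ν : ℝ) (hγ : γ ∈ Set.Icc (0 : ℝ) 1) (hν : ν ∈ Set.Icc (0 : ℝ) 1) :
    (BddAbove (holevoSet (gadc γ ν)) ∧ (holevoSet (gadc γ ν)).Nonempty) ∧
    (∀ n : ℕ, 1 ≤ n →
      BddAbove (holevoSet (tensorPow (gadc γ ν) n)) ∧
      (holevoSet (tensorPow (gadc γ ν) n)).Nonempty ∧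
      holevoCapacity (tensorPow (gadc γ ν) n) = n * holevoCapacity (gadc γ ν)) ∧
    BddAbove (blockRates (gadc γ ν)) ∧
    classicalCapacity (gadc γ ν) = holevoCapacity (gadc γ ν) ∧
    IsGreatest (rate γ ν '' Set.Icc (0 : ℝ) 1) (classicalCapacity (gadc γ ν)) := by
  obtain ⟨h1, h2, h3, h4⟩ := final γ ν hγ hν
  refine ⟨h1, h2, ⟨holevoCapacity (gadc γ ν), ?_⟩, h3, h4⟩
  rintro c ⟨n, hn, rfl⟩
  rw [(h2 n hn).2.2]
  have : (n : ℝ) ≠ 0 := by positivity
  rw [mul_div_cancel_left₀ _ this]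

end Vale.Agent.Results.P358.Additivity
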